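import Mathlib

/-!
# P153: uniform odd-integer Lipschitz heights with two-arc boundary values on a finite graph
-/

namespace Vale.Agent.Lib.P153

variable {V : Type*}

/-- `h` is an admissible height function: odd-integer valued, `+1` on `Ap`, `-1` on `Am`, and
`|h v - h w| ∈ {0,2}` for adjacent `v, w`. -/
def IsHeight (G : SimpleGraph V) (Ap Am : Set V) (h : V → ℤ) : Prop :=
  (∀ v, Odd (h v)) ∧ (∀ v ∈ Ap, h v = 1) ∧ (∀ v ∈ Am, h v = -1) ∧
    ∀ v w, G.Adj v w → |h v - h w| = 0 ∨ |h v - h w| = 2

/-- `v` is joined to `Ap` by a path of `G` along which `h` is positive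
(the positive cluster of the arc `Ap`). -/
def PosCluster (G : SimpleGraph V) (Ap : Set V) (h : V → ℤ) (v : V) : Prop :=
  ∃ a ∈ Ap, Relation.ReflTransGen (fun x y => G.Adj x y ∧ 0 < h y) a v

/-- `v` is joined to `Am` by a path of `G` that avoids the positive cluster of `Ap`:
`v` lies on the `Am` side of the interface. -/
def MinusSide (G : SimpleGraph V) (Ap Am : Set V) (h : V → ℤ) (v : V) : Prop :=
  ∃ b ∈ Am, Relation.ReflTransGen (fun x y => G.Adj x y ∧ ¬ PosCluster G Ap h y) b v

/-- `A` is connected inside `G`: any two of its points are joined by a path of `G` inside `A`. -/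
def ArcConnected (G : SimpleGraph V) (A : Set V) : Prop :=
  ∀ a ∈ A, ∀ a' ∈ A, Relation.ReflTransGen (fun x y => G.Adj x y ∧ y ∈ A) a a'

/-- Discrete simple connectivity: every symmetric `ℤ/2`-valued function on pairs of vertices
whose sum around every triangle of `G` vanishes is, on the edges of `G`, the coboundary of a
function on the vertices (the first `ℤ/2` cohomology of the triangle complex of `G` vanishes). -/
def TriangleSimplyConnected (G : SimpleGraph V) : Prop :=
  ∀ c : V → V → ZMod 2, (∀ x y, c x y = c y x) →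
    (∀ x y z, G.Adj x y → G.Adj y z → G.Adj z x → c x y + c y z + c z x = 0) →
    ∃ φ : V → ZMod 2, ∀ x y, G.Adj x y → c x y = φ x + φ y

end Vale.Agent.Lib.P153
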