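import Mathlib
import Vale.Agent.Lib.P153.Defs

/-!
# P153: reflection involutions for Lipschitz heights
-/

namespace Vale.Agent.Lib.P153

open Relation

variable {V : Type*} {G : SimpleGraph V} {Ap Am : Set V} {h : V → ℤ}

lemma pos_of_posCluster (hv : IsHeight G Ap Am h) {v : V} (hp : PosCluster G Ap h v) : 0 < h v := by
  obtain ⟨a, ha, hchain⟩ := hp
  rcases ReflTransGen.cases_tail hchain with rfl | ⟨y, _, hy⟩
  · rw [hv.2.1 _ ha]; norm_num
  · exact hy.2

lemma posCluster_step {v w : V} (hp : PosCluster G Ap h v) (hadj : G.Adj v w) (hw : 0 < h w) :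
    PosCluster G Ap h w := by
  obtain ⟨a, ha, hchain⟩ := hp
  exact ⟨a, ha, hchain.tail ⟨hadj, hw⟩⟩

lemma posCluster_of_mem {a : V} (ha : a ∈ Ap) : PosCluster G Ap h a := ⟨a, ha, ReflTransGen.refl⟩

lemma not_posCluster_of_minusSide (hv : IsHeight G Ap Am h) {v : V} (hm : MinusSide G Ap Am h v) :
    ¬ PosCluster G Ap h v := by
  obtain ⟨b, hb, hchain⟩ := hm
  rcases ReflTransGen.cases_tail hchain with rfl | ⟨y, _, hy⟩
  · intro hp
    have := pos_of_posCluster hv hp
    rw [hv.2.2.1 _ hb] at this
    norm_num at this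
  · exact hy.2

lemma minusSide_step {v w : V} (hm : MinusSide G Ap Am h v) (hadj : G.Adj v w)
    (hw : ¬ PosCluster G Ap h w) : MinusSide G Ap Am h w := by
  obtain ⟨b, hb, hchain⟩ := hm
  exact ⟨b, hb, hchain.tail ⟨hadj, hw⟩⟩

lemma minusSide_of_mem {b : V} (hb : b ∈ Am) : MinusSide G Ap Am h b := ⟨b, hb, ReflTransGen.refl⟩

/-- across the interface the heights are `-1` and `+1`. -/
lemma interface (hv : IsHeight G Ap Am h) {y z : V} (hy : MinusSide G Ap Am h y)
    (hadj : G.Adj y z) (hz : ¬ MinusSide G Ap Am h z) :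
    PosCluster G Ap h z ∧ h z = 1 ∧ h y = -1 := by
  have hpz : PosCluster G Ap h z := by
    by_contra hcon
    exact hz (minusSide_step hy hadj hcon)
  have hzpos := pos_of_posCluster hv hpz
  have hynot := not_posCluster_of_minusSide hv hy
  have hyneg : ¬ 0 < h y := fun hpos => hynot (posCluster_step hpz hadj.symm hpos)
  obtain ⟨k, hk⟩ := hv.1 y
  obtain ⟨l, hl⟩ := hv.1 z
  have habs := hv.2.2.2 y z hadj
  refine ⟨hpz, ?_, ?_⟩
  · rcases habs with h0 | h2
    · rw [abs_eq_zero] at h0; omega
    · rcases abs_eq (by norm_num : (0:ℤ) ≤ 2) |>.mp h2 with h3 | h3 <;> omega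
  · rcases habs with h0 | h2
    · rw [abs_eq_zero] at h0; omega
    · rcases abs_eq (by norm_num : (0:ℤ) ≤ 2) |>.mp h2 with h3 | h3 <;> omega

open Classical in
/-- reflect the heights on the minus side about the level `-1`. -/
noncomputable def flipM (G : SimpleGraph V) (Ap Am : Set V) (h : V → ℤ) : V → ℤ :=
  fun v => if MinusSide G Ap Am h v then -2 - h v else h v

open Classical in
/-- reflect the heights off the minus side about the level `+1`. -/
noncomputable def flipL (G : SimpleGraph V) (Ap Am : Set V) (h : V → ℤ) : V → ℤ :=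
  fun v => if MinusSide G Ap Am h v then h v else 2 - h v

lemma flipM_of_mem {v : V} (hm : MinusSide G Ap Am h v) : flipM G Ap Am h v = -2 - h v := by
  unfold flipM; rw [if_pos hm]

lemma flipM_of_not_mem {v : V} (hm : ¬ MinusSide G Ap Am h v) : flipM G Ap Am h v = h v := by
  unfold flipM; rw [if_neg hm]

lemma flipL_of_mem {v : V} (hm : MinusSide G Ap Am h v) : flipL G Ap Am h v = h v := by
  unfold flipL; rw [if_pos hm]

lemma flipL_of_not_mem {v : V} (hm : ¬ MinusSide G Ap Am h v) : flipL G Ap Am h v = 2 - h v := by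
  unfold flipL; rw [if_neg hm]

lemma not_minusSide_of_mem_Ap (hv : IsHeight G Ap Am h) {a : V} (ha : a ∈ Ap) :
    ¬ MinusSide G Ap Am h a :=
  fun hm => not_posCluster_of_minusSide hv hm (posCluster_of_mem ha)

lemma isHeight_flipM (hv : IsHeight G Ap Am h) : IsHeight G Ap Am (flipM G Ap Am h) := by
  refine ⟨?_, ?_, ?_, ?_⟩
  · intro v
    obtain ⟨k, hk⟩ := hv.1 v
    by_cases hm : MinusSide G Ap Am h v
    · rw [flipM_of_mem hm]; exact ⟨-k - 2, by omega⟩
    · rw [flipM_of_not_mem hm]; exact ⟨k, hk⟩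
  · intro a ha
    rw [flipM_of_not_mem (not_minusSide_of_mem_Ap hv ha)]; exact hv.2.1 a ha
  · intro b hb
    rw [flipM_of_mem (minusSide_of_mem hb), hv.2.2.1 b hb]; norm_num
  · intro v w hadj
    by_cases hm : MinusSide G Ap Am h v <;> by_cases hm' : MinusSide G Ap Am h w
    · rw [flipM_of_mem hm, flipM_of_mem hm']
      have := hv.2.2.2 v w hadj
      have e : (-2 - h v - (-2 - h w)) = -(h v - h w) := by ring
      rw [e, abs_neg]; exact this
    · obtain ⟨_, h1, h2⟩ := interface hv hm hadj hm'
      rw [flipM_of_mem hm, flipM_of_not_mem hm', h1, h2]; right; norm_num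
    · obtain ⟨_, h1, h2⟩ := interface hv hm' hadj.symm hm
      rw [flipM_of_mem hm', flipM_of_not_mem hm, h1, h2]; right; norm_num
    · rw [flipM_of_not_mem hm, flipM_of_not_mem hm']; exact hv.2.2.2 v w hadj

lemma isHeight_flipL (hv : IsHeight G Ap Am h) : IsHeight G Ap Am (flipL G Ap Am h) := by
  refine ⟨?_, ?_, ?_, ?_⟩
  · intro v
    obtain ⟨k, hk⟩ := hv.1 v
    by_cases hm : MinusSide G Ap Am h v
    · rw [flipL_of_mem hm]; exact ⟨k, hk⟩
    · rw [flipL_of_not_mem hm]; exact ⟨-k, by omega⟩
  · intro a ha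
    rw [flipL_of_not_mem (not_minusSide_of_mem_Ap hv ha), hv.2.1 a ha]; norm_num
  · intro b hb
    rw [flipL_of_mem (minusSide_of_mem hb), hv.2.2.1 b hb]
  · intro v w hadj
    by_cases hm : MinusSide G Ap Am h v <;> by_cases hm' : MinusSide G Ap Am h w
    · rw [flipL_of_mem hm, flipL_of_mem hm']; exact hv.2.2.2 v w hadj
    · obtain ⟨_, h1, h2⟩ := interface hv hm hadj hm'
      rw [flipL_of_mem hm, flipL_of_not_mem hm', h1, h2]; right; norm_num
    · obtain ⟨_, h1, h2⟩ := interface hv hm' hadj.symm hm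
      rw [flipL_of_mem hm', flipL_of_not_mem hm, h1, h2]; right; norm_num
    · rw [flipL_of_not_mem hm, flipL_of_not_mem hm']
      have := hv.2.2.2 v w hadj
      have e : (2 - h v - (2 - h w)) = -(h v - h w) := by ring
      rw [e, abs_neg]; exact this

/-- the positive cluster of `Ap` is unchanged by `flipM`. -/
lemma posCluster_flipM (hv : IsHeight G Ap Am h) (v : V) :
    PosCluster G Ap (flipM G Ap Am h) v ↔ PosCluster G Ap h v := by
  constructor
  · rintro ⟨a, ha, hchain⟩
    induction hchain with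
    | refl => exact posCluster_of_mem ha
    | @tail y w _ hstep ih =>
      obtain ⟨hadj, hpos⟩ := hstep
      by_cases hm : MinusSide G Ap Am h w
      · exfalso
        have hy : ¬ MinusSide G Ap Am h y := fun hmy => not_posCluster_of_minusSide hv hmy ih
        obtain ⟨_, _, h2⟩ := interface hv hm hadj.symm hy
        rw [flipM_of_mem hm, h2] at hpos
        norm_num at hpos
      · rw [flipM_of_not_mem hm] at hpos
        exact posCluster_step ih hadj hpos
  · rintro ⟨a, ha, hchain⟩
    have : PosCluster G Ap h v ∧ PosCluster G Ap (flipM G Ap Am h) v := by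
      induction hchain with
      | refl => exact ⟨posCluster_of_mem ha, posCluster_of_mem ha⟩
      | @tail y w _ hstep ih =>
        obtain ⟨hadj, hpos⟩ := hstep
        have hw : PosCluster G Ap h w := posCluster_step ih.1 hadj hpos
        refine ⟨hw, posCluster_step ih.2 hadj ?_⟩
        have hm : ¬ MinusSide G Ap Am h w := fun hm => not_posCluster_of_minusSide hv hm hw
        rw [flipM_of_not_mem hm]; exact hpos
    exact this.2

lemma minusSide_flipM (hv : IsHeight G Ap Am h) (v : V) :
    MinusSide G Ap Am (flipM G Ap Am h) v ↔ MinusSide G Ap Am h v := by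
  have : PosCluster G Ap (flipM G Ap Am h) = PosCluster G Ap h := by
    funext w; exact propext (posCluster_flipM hv w)
  unfold MinusSide
  rw [this]

lemma flipM_flipM (hv : IsHeight G Ap Am h) : flipM G Ap Am (flipM G Ap Am h) = h := by
  funext v
  by_cases hm : MinusSide G Ap Am h v
  · rw [flipM_of_mem ((minusSide_flipM hv v).mpr hm), flipM_of_mem hm]; ring
  · rw [flipM_of_not_mem (fun h' => hm ((minusSide_flipM hv v).mp h')), flipM_of_not_mem hm]

end Vale.Agent.Lib.P153
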