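import Mathlib
import Vale.Agent.Lib.P153.Flip

/-!
# P153: the plus boundary of the minus side is attached to the arc `Ap`
-/

namespace Vale.Agent.Lib.P153

set_option linter.unusedSimpArgs false

open Relation

variable {V : Type*} {G : SimpleGraph V} {Ap Am : Set V} {h : V → ℤ}

open Classical in
lemma cocycle_aux (mx my mz wx wy wz : Prop)
    (e1 : wx → ¬ mx) (e2 : wy → ¬ my) (e3 : wz → ¬ mz)
    (k1 : mx → wy → (mz ∨ wz)) (k2 : mx → wz → (my ∨ wy)) (k3 : my → wx → (mz ∨ wz))
    (k4 : my → wz → (mx ∨ wx)) (k5 : mz → wx → (my ∨ wy)) (k6 : mz → wy → (mx ∨ wx)) :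
    (if (mx ∧ wy) ∨ (my ∧ wx) then (1:ZMod 2) else 0) + (if (my ∧ wz) ∨ (mz ∧ wy) then 1 else 0)
      + (if (mz ∧ wx) ∨ (mx ∧ wz) then 1 else 0) = 0 := by
  have h2 : (1:ZMod 2) + 1 = 0 := by decide
  by_cases hmx : mx <;> by_cases hmy : my <;> by_cases hmz : mz <;>
  by_cases hwx : wx <;> by_cases hwy : wy <;> by_cases hwz : wz <;>
  simp only [hmx, hmy, hmz, hwx, hwy, hwz, and_true, and_false, true_and, false_and, or_true,
        or_false, true_or, false_or, if_true, if_false, add_zero, zero_add, h2, not_true,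
        not_false_iff, imp_false, true_imp_iff, false_imp_iff, or_self, imp_true_iff] at *

/-- plus-side vertices adjacent to the minus side -/
def Bd (G : SimpleGraph V) (Ap Am : Set V) (h : V → ℤ) (z : V) : Prop :=
  ¬ MinusSide G Ap Am h z ∧ ∃ y, G.Adj z y ∧ MinusSide G Ap Am h y

/-- joined to `Ap` inside `Ap ∪ Bd` -/
def W0 (G : SimpleGraph V) (Ap Am : Set V) (h : V → ℤ) (z : V) : Prop :=
  ∃ a ∈ Ap, ReflTransGen (fun x y => G.Adj x y ∧ (y ∈ Ap ∨ Bd G Ap Am h y)) a z

lemma W0_step {y z : V} (hy : W0 G Ap Am h y) (hadj : G.Adj y z) (hz : z ∈ Ap ∨ Bd G Ap Am h z) :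
    W0 G Ap Am h z := by
  obtain ⟨a, ha, hc⟩ := hy
  exact ⟨a, ha, hc.tail ⟨hadj, hz⟩⟩

lemma posCluster_flipL_of_W0 (hv : IsHeight G Ap Am h) {z : V} (hz : W0 G Ap Am h z) :
    PosCluster G Ap (flipL G Ap Am h) z := by
  obtain ⟨a, ha, hc⟩ := hz
  induction hc with
  | refl => exact posCluster_of_mem ha
  | @tail y w _ hstep ih =>
    obtain ⟨hadj, hw⟩ := hstep
    refine posCluster_step ih hadj ?_
    rcases hw with hw | hw
    · rw [flipL_of_not_mem (not_minusSide_of_mem_Ap hv hw), hv.2.1 w hw]; norm_num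
    · obtain ⟨hnm, y', hadj', hy'⟩ := hw
      obtain ⟨_, h1, _⟩ := interface hv hy' hadj'.symm hnm
      rw [flipL_of_not_mem hnm, h1]; norm_num

/-- The key topological lemma: every plus-side vertex adjacent to the minus side is joined to `Ap`
inside `Ap ∪ Bd`. -/
lemma W0_of_Bd (hv : IsHeight G Ap Am h) (hsc : TriangleSimplyConnected G)
    (hAp : ArcConnected G Ap) (hAm : ArcConnected G Am)
    (hedge : ∃ a ∈ Ap, ∃ b ∈ Am, G.Adj a b) {z0 : V} (hz0 : Bd G Ap Am h z0) :
    W0 G Ap Am h z0 := by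
  classical
  by_contra hcon
  set M : V → Prop := MinusSide G Ap Am h with hM
  set W1 : V → Prop := fun z => Bd G Ap Am h z ∧ ¬ W0 G Ap Am h z with hW1
  have hexcl : ∀ v, W1 v → ¬ M v := fun v hw => hw.1.1
  -- key closure fact
  have hK : ∀ x y z, M x → W1 y → G.Adj z x → G.Adj z y → M z ∨ W1 z := by
    intro x y z hx hy hzx hzy
    by_cases hz : M z
    · exact Or.inl hz
    · right
      have hbd : Bd G Ap Am h z := ⟨hz, x, hzx, hx⟩
      refine ⟨hbd, fun hw0 => hy.2 (W0_step hw0 hzy (Or.inr hy.1))⟩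
  let c : V → V → ZMod 2 := fun x y => if (M x ∧ W1 y) ∨ (M y ∧ W1 x) then 1 else 0
  have hsymm : ∀ x y, c x y = c y x := by
    intro x y
    simp only [c]
    congr 1
    exact propext or_comm
  have hcoc : ∀ x y z, G.Adj x y → G.Adj y z → G.Adj z x → c x y + c y z + c z x = 0 := by
    intro x y z hxy hyz hzx
    have key := cocycle_aux (M x) (M y) (M z) (W1 x) (W1 y) (W1 z) (hexcl x) (hexcl y) (hexcl z)
      (fun a b => hK x y z a b hzx hyz.symm) (fun a b => hK x z y a b hxy.symm hyz)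
      (fun a b => hK y x z a b hyz.symm hzx) (fun a b => hK y z x a b hxy hzx.symm)
      (fun a b => hK z x y a b hyz hxy.symm) (fun a b => hK z y x a b hzx.symm hxy)
    simp only [c]
    convert key
  obtain ⟨φ, hφ⟩ := hsc c hsymm hcoc
  have heq_of_zero : ∀ x y, G.Adj x y → c x y = 0 → φ x = φ y := by
    intro x y hadj h0
    have := hφ x y hadj
    rw [h0] at this
    have h3 : φ x + φ y + φ y = φ y := by rw [← this, zero_add]
    rw [add_assoc, CharTwo.add_self_eq_zero, add_zero] at h3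
    exact h3
  have hc_notM : ∀ x y, ¬ M x → ¬ M y → c x y = 0 := by
    intro x y hx hy
    simp only [c, hx, hy, false_and, or_self, if_false]
  have hc_M : ∀ x y, M x → M y → c x y = 0 := by
    intro x y hx hy
    have h1 : ¬ W1 x := fun hw => hexcl x hw hx
    have h2 : ¬ W1 y := fun hw => hexcl y hw hy
    simp only [c, h1, h2, and_false, or_self, if_false]
  obtain ⟨a0, ha0, b0, hb0, hab⟩ := hedge
  -- φ constant on Am
  have hφAm : ∀ b ∈ Am, φ b = φ b0 := by
    intro b hb
    have hc := hAm b0 hb0 b hb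
    have : M b ∧ φ b = φ b0 := by
      induction hc with
      | refl => exact ⟨minusSide_of_mem hb0, rfl⟩
      | @tail y w _ hstep ih =>
        have hw : M w := minusSide_of_mem hstep.2
        have ihy := ih (by
          rcases ReflTransGen.cases_tail ‹ReflTransGen _ b0 y› with rfl | ⟨_, _, hy⟩
          · exact hb0
          · exact hy.2)
        exact ⟨hw, by rw [← ihy.2]; exact (heq_of_zero y w hstep.1 (hc_M y w ihy.1 hw)).symm⟩
    exact this.2
  have hφM : ∀ v, M v → φ v = φ b0 := by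
    intro v hvM
    obtain ⟨b, hb, hc⟩ := hvM
    have : M v ∧ φ v = φ b0 := by
      induction hc with
      | refl => exact ⟨minusSide_of_mem hb, hφAm b hb⟩
      | @tail y w _ hstep ih =>
        have hw : M w := minusSide_step ih.1 hstep.1 hstep.2
        exact ⟨hw, by rw [← ih.2]; exact (heq_of_zero y w hstep.1 (hc_M y w ih.1 hw)).symm⟩
    exact this.2
  have hφAp : ∀ a ∈ Ap, φ a = φ a0 := by
    intro a ha
    have hc := hAp a0 ha0 a ha
    have : ¬ M a ∧ φ a = φ a0 := by
      induction hc with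
      | refl => exact ⟨not_minusSide_of_mem_Ap hv ha0, rfl⟩
      | @tail y w _ hstep ih =>
        have hw : ¬ M w := not_minusSide_of_mem_Ap hv hstep.2
        have ihy := ih (by
          rcases ReflTransGen.cases_tail ‹ReflTransGen _ a0 y› with rfl | ⟨_, _, hy⟩
          · exact ha0
          · exact hy.2)
        exact ⟨hw, by rw [← ihy.2]; exact (heq_of_zero y w hstep.1 (hc_notM y w ihy.1 hw)).symm⟩
    exact this.2
  have hφP : ∀ v, PosCluster G Ap h v → φ v = φ a0 := by
    intro v hvP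
    obtain ⟨a, ha, hc⟩ := hvP
    have : PosCluster G Ap h v ∧ φ v = φ a0 := by
      induction hc with
      | refl => exact ⟨posCluster_of_mem ha, hφAp a ha⟩
      | @tail y w _ hstep ih =>
        have hw : PosCluster G Ap h w := posCluster_step ih.1 hstep.1 hstep.2
        have h1 : ¬ M y := fun hm => not_posCluster_of_minusSide hv hm ih.1
        have h2 : ¬ M w := fun hm => not_posCluster_of_minusSide hv hm hw
        exact ⟨hw, by rw [← ih.2]; exact (heq_of_zero y w hstep.1 (hc_notM y w h1 h2)).symm⟩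
    exact this.2
  -- a0 and b0
  have hab0 : φ a0 = φ b0 := by
    apply heq_of_zero a0 b0 hab
    have h1 : ¬ M a0 := not_minusSide_of_mem_Ap hv ha0
    have h2 : ¬ W1 a0 := fun hw => hw.2 ⟨a0, ha0, ReflTransGen.refl⟩
    simp only [c, h1, h2, false_and, and_false, or_self, if_false]
  obtain ⟨hz0M, y0, hadj0, hy0⟩ := hz0
  have hz0P : PosCluster G Ap h z0 := (interface hv hy0 hadj0.symm hz0M).1
  have h1 : c z0 y0 = 1 := by
    have hw : W1 z0 := ⟨⟨hz0M, y0, hadj0, hy0⟩, hcon⟩
    have hy0' : M y0 := hy0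
    simp only [c, hw, hy0', and_self, or_true, if_true]
  have h2 := hφ z0 y0 hadj0
  rw [h1, hφP z0 hz0P, hφM y0 hy0, hab0, CharTwo.add_self_eq_zero] at h2
  exact one_ne_zero h2

end Vale.Agent.Lib.P153
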