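import Mathlib
import Vale.Agent.Lib.P153.Topo

/-!
# P153: the second reflection, finiteness and existence of heights
-/

namespace Vale.Agent.Lib.P153

set_option linter.unnecessarySeqFocus false

open Relation

variable {V : Type*} {G : SimpleGraph V} {Ap Am : Set V} {h : V → ℤ}

lemma not_minusSide_of_posCluster_flipL (hv : IsHeight G Ap Am h) {w : V}
    (hp : PosCluster G Ap (flipL G Ap Am h) w) : ¬ MinusSide G Ap Am h w := by
  obtain ⟨a, ha, hc⟩ := hp
  induction hc with
  | refl => exact not_minusSide_of_mem_Ap hv ha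
  | @tail y w _ hstep ih =>
    intro hm
    obtain ⟨_, _, h2⟩ := interface hv hm hstep.1.symm ih
    have hpos := hstep.2
    rw [flipL_of_mem hm, h2] at hpos
    norm_num at hpos

lemma minusSide_flipL (hv : IsHeight G Ap Am h) (hsc : TriangleSimplyConnected G)
    (hAp : ArcConnected G Ap) (hAm : ArcConnected G Am)
    (hedge : ∃ a ∈ Ap, ∃ b ∈ Am, G.Adj a b) (v : V) :
    MinusSide G Ap Am (flipL G Ap Am h) v ↔ MinusSide G Ap Am h v := by
  constructor
  · rintro ⟨b, hb, hc⟩
    induction hc with
    | refl => exact minusSide_of_mem hb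
    | @tail y w _ hstep ih =>
      by_contra hw
      have hbd : Bd G Ap Am h w := ⟨hw, y, hstep.1.symm, ih⟩
      exact hstep.2 (posCluster_flipL_of_W0 hv (W0_of_Bd hv hsc hAp hAm hedge hbd))
  · rintro ⟨b, hb, hc⟩
    have : MinusSide G Ap Am h v ∧ MinusSide G Ap Am (flipL G Ap Am h) v := by
      induction hc with
      | refl => exact ⟨minusSide_of_mem hb, minusSide_of_mem hb⟩
      | @tail y w _ hstep ih =>
        have hw : MinusSide G Ap Am h w := minusSide_step ih.1 hstep.1 hstep.2
        refine ⟨hw, minusSide_step ih.2 hstep.1 ?_⟩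
        intro hp
        exact not_minusSide_of_posCluster_flipL hv hp hw
    exact this.2

lemma flipL_flipL (hv : IsHeight G Ap Am h) (hsc : TriangleSimplyConnected G)
    (hAp : ArcConnected G Ap) (hAm : ArcConnected G Am)
    (hedge : ∃ a ∈ Ap, ∃ b ∈ Am, G.Adj a b) : flipL G Ap Am (flipL G Ap Am h) = h := by
  funext v
  by_cases hm : MinusSide G Ap Am h v
  · rw [flipL_of_mem ((minusSide_flipL hv hsc hAp hAm hedge v).mpr hm), flipL_of_mem hm]
  · rw [flipL_of_not_mem (fun h' => hm ((minusSide_flipL hv hsc hAp hAm hedge v).mp h')),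
      flipL_of_not_mem hm]; ring

/-- heights change by at most `2` per step of a walk -/
lemma abs_sub_le_of_walk (hv : IsHeight G Ap Am h) {u v : V} (p : G.Walk u v) :
    |h v - h u| ≤ 2 * p.length := by
  induction p with
  | nil => simp
  | @cons u w v hadj p ih =>
    have h1 := hv.2.2.2 u w hadj
    have h2 : |h u - h w| ≤ 2 := by rcases h1 with h1 | h1 <;> rw [h1] <;> norm_num
    have h3 : |h v - h u| ≤ |h v - h w| + |h w - h u| := abs_sub_le _ _ _
    rw [abs_sub_comm (h w) (h u)] at h3
    simp only [SimpleGraph.Walk.length_cons]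
    push_cast
    linarith

lemma finite_heights [Finite V] (hconn : G.Connected) (hne : Ap.Nonempty) :
    {h | IsHeight G Ap Am h}.Finite := by
  classical
  obtain ⟨a, ha⟩ := hne
  have hreach : ∀ v, ∃ p : G.Walk a v, True := fun v => ⟨(hconn.preconnected a v).some, trivial⟩
  choose p _ using hreach
  have hfin : (Set.pi Set.univ (fun v => Set.Icc (1 - 2 * ((p v).length : ℤ)) (1 + 2 * (p v).length))).Finite :=
    Set.Finite.pi (fun v => Set.finite_Icc _ _)
  refine hfin.subset ?_
  intro h hv
  rw [Set.mem_pi]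
  intro v _
  have h1 := abs_sub_le_of_walk hv (p v)
  rw [hv.2.1 a ha, abs_le] at h1
  exact ⟨by linarith [h1.1], by linarith [h1.2]⟩

open Classical in
lemma exists_height (hdisj : Disjoint Ap Am) : IsHeight G Ap Am (fun v => if v ∈ Am then -1 else 1) := by
  refine ⟨?_, ?_, ?_, ?_⟩
  · intro v
    by_cases hm : v ∈ Am
    · simp only [hm, if_true]; exact ⟨-1, by norm_num⟩
    · simp only [hm, if_false]; exact ⟨0, by norm_num⟩
  · intro v hv
    have : v ∉ Am := fun hm => Set.disjoint_left.mp hdisj hv hm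
    simp only [this, if_false]
  · intro v hv
    simp only [hv, if_true]
  · intro v w _
    by_cases hm : v ∈ Am <;> by_cases hm' : w ∈ Am <;> simp [hm, hm']


/-- summation under an involution `σ` with `σ h x = c - h x`. -/
lemma two_mul_sum_eq {V : Type*} (T : Finset (V → ℤ)) (σ : (V → ℤ) → (V → ℤ))
    (hσT : ∀ h ∈ T, σ h ∈ T) (hinv : ∀ h ∈ T, σ (σ h) = h) (c : ℤ) (x : V)
    (hx : ∀ h ∈ T, σ h x = c - h x) : 2 * ∑ h ∈ T, h x = c * T.card := by
  have h1 : ∑ h ∈ T, h x = ∑ h ∈ T, (c - h x) := by
    refine Finset.sum_nbij' σ σ hσT hσT hinv hinv ?_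
    intro h hh
    rw [hx h hh]; ring
  rw [Finset.sum_sub_distrib, Finset.sum_const, nsmul_eq_mul] at h1
  linarith

end Vale.Agent.Lib.P153
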